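import Vale.Agent.Helper16.KTVG.Plan
import Vale.Agent.Helper13.SwitchChain

/-!
# P335 general graphs: from the Poincaré inequality on `gOmega n d` to the hand-in statements

`KTVG.GapStmt n d` is the Poincaré inequality `4 * sqDev ≤ dirichlet IsSwitch` on the
`Finset` `KTVG.gOmega n d` of simple graphs with degree vector `d`.  This file converts it
to statements about the subtype `Realization n d` of `Vale.Agent.Helper13.Switch`
(spectral gap of the switch graph, total variation and mixing time of the switch chain).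
Everything is stated for a general constant `c > 0` and specialised to `c = 4` and `c = 2`.
-/

namespace Vale.Agent.Helper1.KTVGFinal

open Finset Vale.Agent.Helper13.Switch
open Classical

variable {n : ℕ}

/-- extension by zero of a function on the realizations of `d` to all graphs -/
noncomputable def ext0 (d : Fin n → ℕ) (g : Realization n d → ℝ) : SimpleGraph (Fin n) → ℝ :=
  fun G => if h : ∀ i, G.degree i = d i then g ⟨G, h⟩ else 0

lemma ext0_val (d : Fin n → ℕ) (g : Realization n d → ℝ) (G : Realization n d) :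
    ext0 d g G.1 = g G := by
  unfold ext0
  rw [dif_pos G.2]

/-- sums over `gOmega n d` are sums over the subtype of realizations -/
lemma sum_gOmega (d : Fin n → ℕ) (F : SimpleGraph (Fin n) → ℝ) :
    ∑ G ∈ KTVG.gOmega n d, F G = ∑ G : Realization n d, F G.1 :=
  Finset.sum_subtype (KTVG.gOmega n d) (fun _ => KTVG.mem_gOmega) F

/-- the Poincaré inequality on `gOmega n d` with constant `c` gives the spectral gap `c / 2`
of the switch graph on `Realization n d`, in the form used by `tmix_poly_of_gap` -/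
theorem gap_of_poincare (d : Fin n → ℕ) (c : ℝ)
    (h : ∀ f : SimpleGraph (Fin n) → ℝ,
      c * KTV.sqDev (KTVG.gOmega n d) f ≤ KTV.dirichlet (KTVG.gOmega n d) IsSwitch f)
    (g : Realization n d → ℝ) (hg : ∑ G, g G = 0) :
    c / 2 * ∑ G, g G ^ 2 ≤ (1 / 2 : ℝ) * ∑ G : Realization n d, ∑ G' : Realization n d,
      (if IsSwitch G.1 G'.1 then (g G - g G') ^ 2 else 0) := by
  have h1 := h (ext0 d g)
  have hsum : ∑ x ∈ KTVG.gOmega n d, ext0 d g x = 0 := by
    rw [sum_gOmega]
    simp only [ext0_val]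
    exact hg
  have hsq : KTV.sqDev (KTVG.gOmega n d) (ext0 d g) = ∑ G, g G ^ 2 := by
    unfold KTV.sqDev
    rw [hsum, zero_div]
    simp only [sub_zero]
    rw [sum_gOmega d (fun x => ext0 d g x ^ 2)]
    simp only [ext0_val]
  have hdir : KTV.dirichlet (KTVG.gOmega n d) IsSwitch (ext0 d g)
      = ∑ G : Realization n d, ∑ G' : Realization n d,
        (if IsSwitch G.1 G'.1 then (g G - g G') ^ 2 else 0) := by
    unfold KTV.dirichlet
    simp only [Finset.sum_filter]
    rw [sum_gOmega]
    refine Finset.sum_congr rfl fun G _ => ?_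
    rw [sum_gOmega]
    refine Finset.sum_congr rfl fun G' _ => ?_
    rw [ext0_val, ext0_val]
  rw [hsq, hdir] at h1
  linarith

/-- mean-free form: `c / 2` times the sum of squared deviations from the mean is at most
the switch energy (each unordered switch pair once) -/
theorem gap_mean_of_poincare (d : Fin n → ℕ) (c : ℝ)
    (h : ∀ f : SimpleGraph (Fin n) → ℝ,
      c * KTV.sqDev (KTVG.gOmega n d) f ≤ KTV.dirichlet (KTVG.gOmega n d) IsSwitch f)
    (g : Realization n d → ℝ) :
    c / 2 * ∑ G : Realization n d,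
        (g G - (∑ H : Realization n d, g H) / (Fintype.card (Realization n d) : ℝ)) ^ 2
      ≤ (1 / 2 : ℝ) * ∑ G : Realization n d, ∑ G' : Realization n d,
          (if IsSwitch G.1 G'.1 then (g G - g G') ^ 2 else 0) := by
  set m : ℝ := (∑ H : Realization n d, g H) / (Fintype.card (Realization n d) : ℝ) with hm
  have hmean : ∑ G : Realization n d, (g G - m) = 0 := by
    rw [Finset.sum_sub_distrib, Finset.sum_const, nsmul_eq_mul, Finset.card_univ]
    by_cases hN : (Fintype.card (Realization n d) : ℝ) = 0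
    · have hempty : IsEmpty (Realization n d) := by
        rw [← Fintype.card_eq_zero_iff]
        exact_mod_cast hN
      simp
    · rw [hm]; field_simp; ring
  have h' := gap_of_poincare d c h (fun G => g G - m) hmean
  have e : ∀ G G' : Realization n d,
      (if IsSwitch G.1 G'.1 then (g G - m - (g G' - m)) ^ 2 else 0)
        = (if IsSwitch G.1 G'.1 then (g G - g G') ^ 2 else 0) := by
    intro G G'
    split_ifs
    · ring
    · rfl
  simp only [e] at h'
  exact h'

/-- spectral gap `2` of the switch graph from `KTVG.GapStmt` -/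
theorem general_gap (d : Fin n → ℕ) (h : KTVG.GapStmt n d) (g : Realization n d → ℝ) :
    2 * ∑ G : Realization n d,
        (g G - (∑ H : Realization n d, g H) / (Fintype.card (Realization n d) : ℝ)) ^ 2
      ≤ (1 / 2 : ℝ) * ∑ G : Realization n d, ∑ G' : Realization n d,
          (if IsSwitch G.1 G'.1 then (g G - g G') ^ 2 else 0) := by
  have := gap_mean_of_poincare d 4 h g
  norm_num at this
  exact this

/-- mixing time from a Poincaré inequality with constant `c > 0` -/
theorem tmix_of_poincare (hn : 4 ≤ n) (d : Fin n → ℕ) (c : ℝ) (hc : 0 < c)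
    (h : ∀ f : SimpleGraph (Fin n) → ℝ,
      c * KTV.sqDev (KTVG.gOmega n d) f ≤ KTV.dirichlet (KTVG.gOmega n d) IsSwitch f) :
    tmix n d ≤ ⌈24 * (n.choose 4 : ℝ) * (n : ℝ) ^ 2 / c⌉₊ := by
  have h1 := tmix_poly_of_gap hn d (c / 2) (by positivity) (gap_of_poincare d c h)
  have e : 12 * (n.choose 4 : ℝ) * (n : ℝ) ^ 2 / (c / 2) = 24 * (n.choose 4 : ℝ) * (n : ℝ) ^ 2 / c := by
    field_simp
    ring
  rw [e] at h1
  exact h1

/-- total variation bound from a Poincaré inequality with constant `c > 0` -/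
theorem tv_of_poincare (hn : 4 ≤ n) (d : Fin n → ℕ) (c : ℝ) (hc : 0 < c)
    (h : ∀ f : SimpleGraph (Fin n) → ℝ,
      c * KTV.sqDev (KTVG.gOmega n d) f ≤ KTV.dirichlet (KTVG.gOmega n d) IsSwitch f)
    (t : ℕ) (ht : 24 * (n.choose 4 : ℝ) * (n : ℝ) ^ 2 / c ≤ (t : ℝ)) (G : Realization n d) :
    (1 / 2 : ℝ) * ∑ G' : Realization n d,
      |(switchChain n d ^ t) G G' - 1 / (Fintype.card (Realization n d) : ℝ)| ≤ 1 / 4 := by
  apply tv_poly_of_gap hn d (c / 2) (by positivity) (gap_of_poincare d c h)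
  have e : 12 * (n.choose 4 : ℝ) * (n : ℝ) ^ 2 / (c / 2) = 24 * (n.choose 4 : ℝ) * (n : ℝ) ^ 2 / c := by
    field_simp
    ring
  rw [e]
  exact ht

/-- `t_mix ≤ 6 C(n,4) n²` from `KTVG.GapStmt` -/
theorem general_tmix (hn : 4 ≤ n) (d : Fin n → ℕ) (h : KTVG.GapStmt n d) :
    tmix n d ≤ 6 * n.choose 4 * n ^ 2 := by
  have h1 := tmix_of_poincare hn d 4 (by norm_num) h
  refine h1.trans ?_
  rw [Nat.ceil_le]
  push_cast
  have : (24 : ℝ) * (n.choose 4 : ℝ) * (n : ℝ) ^ 2 / 4 = 6 * (n.choose 4 : ℝ) * (n : ℝ) ^ 2 := by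
    ring
  rw [this]

/-- total variation form of `general_tmix` -/
theorem general_tv (hn : 4 ≤ n) (d : Fin n → ℕ) (h : KTVG.GapStmt n d)
    (t : ℕ) (ht : 6 * n.choose 4 * n ^ 2 ≤ t) (G : Realization n d) :
    (1 / 2 : ℝ) * ∑ G' : Realization n d,
      |(switchChain n d ^ t) G G' - 1 / (Fintype.card (Realization n d) : ℝ)| ≤ 1 / 4 := by
  apply tv_of_poincare hn d 4 (by norm_num) h
  have h1 : ((6 * n.choose 4 * n ^ 2 : ℕ) : ℝ) ≤ (t : ℝ) := by exact_mod_cast ht
  push_cast at h1
  linarith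

/-- fallback with the weaker constant `2` (gap `1`): `t_mix ≤ 12 C(n,4) n²` -/
theorem general_tmix_weak (hn : 4 ≤ n) (d : Fin n → ℕ)
    (h : ∀ f : SimpleGraph (Fin n) → ℝ,
      2 * KTV.sqDev (KTVG.gOmega n d) f ≤ KTV.dirichlet (KTVG.gOmega n d) IsSwitch f) :
    tmix n d ≤ 12 * n.choose 4 * n ^ 2 := by
  have h1 := tmix_of_poincare hn d 2 (by norm_num) h
  refine h1.trans ?_
  rw [Nat.ceil_le]
  push_cast
  have : (24 : ℝ) * (n.choose 4 : ℝ) * (n : ℝ) ^ 2 / 2 = 12 * (n.choose 4 : ℝ) * (n : ℝ) ^ 2 := by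
    ring
  rw [this]

/-- total variation form of `general_tmix_weak` -/
theorem general_tv_weak (hn : 4 ≤ n) (d : Fin n → ℕ)
    (h : ∀ f : SimpleGraph (Fin n) → ℝ,
      2 * KTV.sqDev (KTVG.gOmega n d) f ≤ KTV.dirichlet (KTVG.gOmega n d) IsSwitch f)
    (t : ℕ) (ht : 12 * n.choose 4 * n ^ 2 ≤ t) (G : Realization n d) :
    (1 / 2 : ℝ) * ∑ G' : Realization n d,
      |(switchChain n d ^ t) G G' - 1 / (Fintype.card (Realization n d) : ℝ)| ≤ 1 / 4 := by
  apply tv_of_poincare hn d 2 (by norm_num) h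
  have h1 : ((12 * n.choose 4 * n ^ 2 : ℕ) : ℝ) ≤ (t : ℝ) := by exact_mod_cast ht
  push_cast at h1
  linarith

/-- fallback with the weaker constant `2`: spectral gap `1` of the switch graph -/
theorem general_gap_weak (d : Fin n → ℕ)
    (h : ∀ f : SimpleGraph (Fin n) → ℝ,
      2 * KTV.sqDev (KTVG.gOmega n d) f ≤ KTV.dirichlet (KTVG.gOmega n d) IsSwitch f)
    (g : Realization n d → ℝ) :
    ∑ G : Realization n d,
        (g G - (∑ H : Realization n d, g H) / (Fintype.card (Realization n d) : ℝ)) ^ 2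
      ≤ (1 / 2 : ℝ) * ∑ G : Realization n d, ∑ G' : Realization n d,
          (if IsSwitch G.1 G'.1 then (g G - g G') ^ 2 else 0) := by
  have := gap_mean_of_poincare d 2 h g
  norm_num at this
  exact this

end Vale.Agent.Helper1.KTVGFinal
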