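import Vale.Agent.Helper16.KTVG.Plan
import Vale.Agent.Helper13.SwitchChain
import Vale.Agent.Helper1.SwitchConn

/-!
# P335 general graphs, module M5: the kernel statement `KTVG.KerStmt`

A function on the realizations of `d` that is fixed by every pair heat bath
`E[· | G - u - v]` is constant: a switch `ab, cd → ac, bd` keeps every slot that avoids
`a` and `d`, so a graph and its switch lie in the same fibre of `labP a d`; and the
realizations are connected by switches.
-/

namespace Vale.Agent.Helper1.KTVGKer

open Finset Vale.Agent.Helper13.Switch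
open Classical

variable {n : ℕ}

/-- a switch on `a b c d` keeps the label of the pair `a, d` -/
theorem labP_switch (G : SimpleGraph (Fin n)) (a b c d : Fin n) :
    KTVG.labP a d (switchGraph G a b c d) = KTVG.labP a d G := by
  unfold KTVG.labP KTVG.labOffV
  rw [KTVG.slotLab_eq_iff]
  intro x y hxy
  unfold KTVG.Rinc at hxy
  simp only [Finset.mem_insert, Finset.mem_singleton, not_or] at hxy
  obtain ⟨⟨hxa, hxd⟩, hya, hyd⟩ := hxy
  rw [switchGraph_adj]
  constructor
  · rintro (⟨h, -, -⟩ | ⟨h, -⟩)
    · exact h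
    · rcases h with (⟨h, -⟩ | ⟨-, h⟩) | (⟨-, h⟩ | ⟨h, -⟩)
      · exact absurd h hxa
      · exact absurd h hya
      · exact absurd h hyd
      · exact absurd h hxd
  · intro h
    refine Or.inl ⟨h, ?_, ?_⟩
    · rintro (⟨h', -⟩ | ⟨-, h'⟩)
      · exact hxa h'
      · exact hya h'
    · rintro (⟨-, h'⟩ | ⟨h', -⟩)
      · exact hyd h'
      · exact hxd h'

/-- **M5.** A function fixed by all pair heat baths is constant on the realizations. -/
theorem ker (n : ℕ) (d : Fin n → ℕ) : KTVG.KerStmt n d := by
  intro f hf G hG G' hG'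
  rw [KTVG.mem_gOmega] at hG hG'
  have hreach := Vale.Agent.Helper1.SwitchConn.switch_connected G G'
    (fun i => by rw [hG i, hG' i])
  have key : ∀ H, Relation.ReflTransGen IsSwitch G H →
      (∀ i, H.degree i = d i) ∧ f G = f H := by
    intro H hH
    induction hH with
    | refl => exact ⟨hG, rfl⟩
    | @tail H1 H2 _ hstep ih =>
      obtain ⟨hdeg, hfe⟩ := ih
      obtain ⟨a, b, c, e, hab, hac, hae, hbc, hbe, hce, hal, rfl⟩ := hstep
      have hdeg2 : ∀ i, (switchGraph H1 a b c e).degree i = d i := fun i => by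
        rw [degree_switch hal hab hac hae hbc hbe hce, hdeg i]
      refine ⟨hdeg2, ?_⟩
      rw [hfe, hf a e hae H1 (KTVG.mem_gOmega.mpr hdeg),
        hf a e hae _ (KTVG.mem_gOmega.mpr hdeg2)]
      exact KTV.cexpL_class _ _ _ (labP_switch H1 a b c e).symm
  exact (key G' hreach).2

/-- symmetry of the pair heat bath in its two vertices -/
theorem cexpL_labP_comm (Ω : Finset (SimpleGraph (Fin n))) (u v : Fin n)
    (f : SimpleGraph (Fin n) → ℝ) (G : SimpleGraph (Fin n)) :
    KTV.cexpL Ω (KTVG.labP u v) f G = KTV.cexpL Ω (KTVG.labP v u) f G := by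
  rw [KTVG.labP_comm]

end Vale.Agent.Helper1.KTVGKer
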