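import Mathlib
import Vale.Agent.Helper13.SwitchChain

/-!
# The fibre of a vertex pair is a Johnson scheme (P335, general graphs, module M7, raw layer)

Fix two distinct vertices `u`, `v` and a graph `G0` on `Fin n`.  The *pair fibre* of `G0`
consists of the graphs `G` with the same degrees as `G0` and the same edges among the
vertices other than `u`, `v` (`SameOff u v G0 G`).  Let `priv u v G0` be the set of
vertices other than `u`, `v` adjacent to exactly one of `u`, `v`, and `ones u v G` the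
private neighbours of `u`.  Then `G ↦ ones u v G` is a bijection from the pair fibre onto
the `k`-subsets of `priv u v G0`, `k = (ones u v G0).card`, with inverse `mk u v G0`.
Exchanging `i ∈ U` for `j ∈ priv \ U` is the switch on `u, i, j, v`.
-/

namespace Vale.Agent.Helper1.PairFibre

open Finset
open Vale.Agent.Helper13.Switch
open Classical

variable {n : ℕ}

/-- `G` and `G'` have the same edges among the vertices other than `u`, `v`. -/
def SameOff (u v : Fin n) (G G' : SimpleGraph (Fin n)) : Prop :=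
  ∀ x y, x ≠ u → x ≠ v → y ≠ u → y ≠ v → (G.Adj x y ↔ G'.Adj x y)

/-- the vertices other than `u`, `v` adjacent to exactly one of `u`, `v` -/
noncomputable def priv (u v : Fin n) (G : SimpleGraph (Fin n)) : Finset (Fin n) :=
  univ.filter fun x => x ≠ u ∧ x ≠ v ∧ (G.Adj u x ↔ ¬ G.Adj v x)

/-- the private neighbours of `u`: adjacent to `u`, not to `v`, and different from `v` -/
noncomputable def ones (u v : Fin n) (G : SimpleGraph (Fin n)) : Finset (Fin n) :=
  univ.filter fun x => x ≠ v ∧ G.Adj u x ∧ ¬ G.Adj v x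

lemma mem_priv {u v : Fin n} {G : SimpleGraph (Fin n)} {x : Fin n} :
    x ∈ priv u v G ↔ x ≠ u ∧ x ≠ v ∧ (G.Adj u x ↔ ¬ G.Adj v x) := by
  simp [priv]

lemma mem_ones {u v : Fin n} {G : SimpleGraph (Fin n)} {x : Fin n} :
    x ∈ ones u v G ↔ x ≠ v ∧ G.Adj u x ∧ ¬ G.Adj v x := by
  simp [ones]

lemma ones_subset_priv (u v : Fin n) (G : SimpleGraph (Fin n)) : ones u v G ⊆ priv u v G := by
  intro x hx
  rw [mem_ones] at hx
  rw [mem_priv]
  exact ⟨(G.ne_of_adj hx.2.1).symm, hx.1, ⟨fun _ => hx.2.2, fun _ => hx.2.1⟩⟩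

lemma mem_ones_iff_of_mem_priv {u v : Fin n} {G : SimpleGraph (Fin n)} {x : Fin n}
    (hx : x ∈ priv u v G) : x ∈ ones u v G ↔ G.Adj u x := by
  rw [mem_priv] at hx
  rw [mem_ones]
  constructor
  · intro h; exact h.2.1
  · intro h; exact ⟨hx.2.1, h, hx.2.2.mp h⟩

lemma not_mem_ones_iff_of_mem_priv {u v : Fin n} {G : SimpleGraph (Fin n)} {x : Fin n}
    (hx : x ∈ priv u v G) : x ∉ ones u v G ↔ G.Adj v x := by
  rw [mem_ones_iff_of_mem_priv hx]
  rw [mem_priv] at hx
  constructor
  · intro h; by_contra h'; exact h (hx.2.2.mpr h')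
  · intro h h'; exact hx.2.2.mp h' h

/-- the asymmetric core of the rebuilt graph -/
def core (u v : Fin n) (P U : Finset (Fin n)) (x y : Fin n) : Prop :=
  (x = u ∧ y ∈ P ∧ y ∈ U) ∨ (x = v ∧ y ∈ P ∧ y ∉ U)

/-- Rebuild the edges between `{u, v}` and `priv u v G0`: `x ∈ priv` is joined to `u` if
`x ∈ U` and to `v` otherwise; all other edges are those of `G0`. -/
def mk (u v : Fin n) (G0 : SimpleGraph (Fin n)) (U : Finset (Fin n)) : SimpleGraph (Fin n) where
  Adj x y := core u v (priv u v G0) U x y ∨ core u v (priv u v G0) U y x ∨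
    (G0.Adj x y ∧ ¬ ((x = u ∨ x = v) ∧ y ∈ priv u v G0) ∧
      ¬ ((y = u ∨ y = v) ∧ x ∈ priv u v G0))
  symm := ⟨by
    rintro x y (h | h | ⟨h1, h2, h3⟩)
    · exact Or.inr (Or.inl h)
    · exact Or.inl h
    · exact Or.inr (Or.inr ⟨h1.symm, h3, h2⟩)⟩
  loopless := ⟨by
    rintro x (h | h | ⟨h1, -, -⟩)
    · rcases h with ⟨rfl, h, -⟩ | ⟨rfl, h, -⟩
      · exact (mem_priv.mp h).1 rfl
      · exact (mem_priv.mp h).2.1 rfl
    · rcases h with ⟨rfl, h, -⟩ | ⟨rfl, h, -⟩
      · exact (mem_priv.mp h).1 rfl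
      · exact (mem_priv.mp h).2.1 rfl
    · exact G0.loopless.irrefl x h1⟩

lemma u_notMem_priv (u v : Fin n) (G : SimpleGraph (Fin n)) : u ∉ priv u v G :=
  fun h => (mem_priv.mp h).1 rfl

lemma v_notMem_priv (u v : Fin n) (G : SimpleGraph (Fin n)) : v ∉ priv u v G :=
  fun h => (mem_priv.mp h).2.1 rfl

/-- the row of `u` in the rebuilt graph -/
lemma mk_adj_u {u v : Fin n} (huv : u ≠ v) (G0 : SimpleGraph (Fin n)) (U : Finset (Fin n))
    (y : Fin n) :
    (mk u v G0 U).Adj u y ↔ (y ∈ priv u v G0 ∧ y ∈ U) ∨ (y ∉ priv u v G0 ∧ G0.Adj u y) := by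
  have hu := u_notMem_priv u v G0
  have hv := v_notMem_priv u v G0
  show core u v (priv u v G0) U u y ∨ core u v (priv u v G0) U y u ∨
    (G0.Adj u y ∧ ¬ ((u = u ∨ u = v) ∧ y ∈ priv u v G0) ∧
      ¬ ((y = u ∨ y = v) ∧ u ∈ priv u v G0)) ↔ _
  unfold core
  constructor
  · rintro ((⟨-, h1, h2⟩ | ⟨h, -, -⟩) | (⟨-, h, -⟩ | ⟨-, h, -⟩) | ⟨h1, h2, -⟩)
    · exact Or.inl ⟨h1, h2⟩
    · exact absurd h huv
    · exact absurd h hu
    · exact absurd h hu
    · exact Or.inr ⟨fun h => h2 ⟨Or.inl rfl, h⟩, h1⟩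
  · rintro (⟨h1, h2⟩ | ⟨h1, h2⟩)
    · exact Or.inl (Or.inl ⟨rfl, h1, h2⟩)
    · exact Or.inr (Or.inr ⟨h2, fun h => h1 h.2, fun h => hu h.2⟩)

/-- the row of `v` in the rebuilt graph -/
lemma mk_adj_v {u v : Fin n} (huv : u ≠ v) (G0 : SimpleGraph (Fin n)) (U : Finset (Fin n))
    (y : Fin n) :
    (mk u v G0 U).Adj v y ↔ (y ∈ priv u v G0 ∧ y ∉ U) ∨ (y ∉ priv u v G0 ∧ G0.Adj v y) := by
  have hu := u_notMem_priv u v G0
  have hv := v_notMem_priv u v G0
  show core u v (priv u v G0) U v y ∨ core u v (priv u v G0) U y v ∨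
    (G0.Adj v y ∧ ¬ ((v = u ∨ v = v) ∧ y ∈ priv u v G0) ∧
      ¬ ((y = u ∨ y = v) ∧ v ∈ priv u v G0)) ↔ _
  unfold core
  constructor
  · rintro ((⟨h, -, -⟩ | ⟨-, h1, h2⟩) | (⟨-, h, -⟩ | ⟨-, h, -⟩) | ⟨h1, h2, -⟩)
    · exact absurd h.symm huv
    · exact Or.inl ⟨h1, h2⟩
    · exact absurd h hv
    · exact absurd h hv
    · exact Or.inr ⟨fun h => h2 ⟨Or.inr rfl, h⟩, h1⟩
  · rintro (⟨h1, h2⟩ | ⟨h1, h2⟩)
    · exact Or.inl (Or.inr ⟨rfl, h1, h2⟩)
    · exact Or.inr (Or.inr ⟨h2, fun h => h1 h.2, fun h => hv h.2⟩)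

/-- away from `u`, `v` the rebuilt graph is `G0` -/
lemma mk_adj_off {u v : Fin n} (G0 : SimpleGraph (Fin n)) (U : Finset (Fin n))
    {x y : Fin n} (hxu : x ≠ u) (hxv : x ≠ v) (hyu : y ≠ u) (hyv : y ≠ v) :
    (mk u v G0 U).Adj x y ↔ G0.Adj x y := by
  show core u v (priv u v G0) U x y ∨ core u v (priv u v G0) U y x ∨
    (G0.Adj x y ∧ ¬ ((x = u ∨ x = v) ∧ y ∈ priv u v G0) ∧
      ¬ ((y = u ∨ y = v) ∧ x ∈ priv u v G0)) ↔ _
  unfold core
  constructor
  · rintro ((⟨h, -, -⟩ | ⟨h, -, -⟩) | (⟨h, -, -⟩ | ⟨h, -, -⟩) | ⟨h1, -, -⟩)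
    · exact absurd h hxu
    · exact absurd h hxv
    · exact absurd h hyu
    · exact absurd h hyv
    · exact h1
  · intro h
    refine Or.inr (Or.inr ⟨h, ?_, ?_⟩)
    · rintro ⟨h' | h', -⟩
      · exact hxu h'
      · exact hxv h'
    · rintro ⟨h' | h', -⟩
      · exact hyu h'
      · exact hyv h'

/-- two graphs with the same rows at `u`, `v` and the same edges elsewhere are equal -/
lemma graph_ext_rows {u v : Fin n} {H H' : SimpleGraph (Fin n)}
    (hu : ∀ y, H.Adj u y ↔ H'.Adj u y) (hv : ∀ y, H.Adj v y ↔ H'.Adj v y)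
    (hoff : ∀ x y, x ≠ u → x ≠ v → y ≠ u → y ≠ v → (H.Adj x y ↔ H'.Adj x y)) : H = H' := by
  ext x y
  by_cases hxu : x = u
  · subst hxu; exact hu y
  by_cases hxv : x = v
  · subst hxv; exact hv y
  by_cases hyu : y = u
  · subst hyu
    rw [H.adj_comm, H'.adj_comm]; exact hu x
  by_cases hyv : y = v
  · subst hyv
    rw [H.adj_comm, H'.adj_comm]; exact hv x
  exact hoff x y hxu hxv hyu hyv

/-- `SameOff` for the rebuilt graph -/
lemma sameOff_mk (u v : Fin n) (G0 : SimpleGraph (Fin n)) (U : Finset (Fin n)) :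
    SameOff u v G0 (mk u v G0 U) := fun _ _ hxu hxv hyu hyv =>
  (mk_adj_off G0 U hxu hxv hyu hyv).symm

/-- the private neighbours of `u` in the rebuilt graph -/
lemma priv_mk {u v : Fin n} (huv : u ≠ v) (G0 : SimpleGraph (Fin n)) (U : Finset (Fin n)) :
    priv u v (mk u v G0 U) = priv u v G0 := by
  ext x
  rw [mem_priv, mem_priv, mk_adj_u huv, mk_adj_v huv]
  by_cases hx : x ∈ priv u v G0
  · have hx' := mem_priv.mp hx
    constructor
    · intro _; exact hx'
    · intro _
      refine ⟨hx'.1, hx'.2.1, ?_⟩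
      by_cases hxU : x ∈ U
      · simp [hx, hxU]
      · simp [hx, hxU]
  · constructor
    · rintro ⟨h1, h2, h3⟩
      refine ⟨h1, h2, ?_⟩
      simpa [hx] using h3
    · rintro ⟨h1, h2, h3⟩
      refine ⟨h1, h2, ?_⟩
      simpa [hx] using h3

lemma ones_mk {u v : Fin n} (huv : u ≠ v) (G0 : SimpleGraph (Fin n)) {U : Finset (Fin n)}
    (hU : U ⊆ priv u v G0) : ones u v (mk u v G0 U) = U := by
  ext x
  rw [mem_ones, mk_adj_u huv, mk_adj_v huv]
  by_cases hx : x ∈ priv u v G0
  · have hx' := mem_priv.mp hx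
    by_cases hxU : x ∈ U
    · simp [hx, hxU, hx'.2.1]
    · simp [hx, hxU]
  · have hxU : x ∉ U := fun h => hx (hU h)
    simp only [hx, false_and, not_false_eq_true, true_and, false_or, hxU, iff_false, not_and,
      not_not]
    intro hxv hux
    by_contra hvx
    exact hx (mem_priv.mpr ⟨(G0.ne_of_adj hux).symm, hxv, ⟨fun _ => hvx, fun _ => hux⟩⟩)

/-- exchanging `i ∈ U` for `j ∈ priv \ U` is the switch on `u, i, j, v` -/
lemma switch_mk {u v : Fin n} (huv : u ≠ v) (G0 : SimpleGraph (Fin n)) {U : Finset (Fin n)}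
    {i j : Fin n} (hi : i ∈ U) (hiP : i ∈ priv u v G0) (hj : j ∈ priv u v G0) (hjU : j ∉ U) :
    Allowed (mk u v G0 U) u i j v ∧
      switchGraph (mk u v G0 U) u i j v = mk u v G0 (insert j (U.erase i)) := by
  have hi' := mem_priv.mp hiP
  have hj' := mem_priv.mp hj
  have hij : i ≠ j := fun h => hjU (h ▸ hi)
  have hal : Allowed (mk u v G0 U) u i j v := by
    refine ⟨?_, ?_, ?_, ?_⟩
    · rw [mk_adj_u huv]; exact Or.inl ⟨hiP, hi⟩
    · rw [SimpleGraph.adj_comm, mk_adj_v huv]; exact Or.inl ⟨hj, hjU⟩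
    · rw [mk_adj_u huv]
      rintro (⟨-, h⟩ | ⟨h, -⟩)
      · exact hjU h
      · exact h hj
    · rw [SimpleGraph.adj_comm, mk_adj_v huv]
      rintro (⟨-, h⟩ | ⟨h, -⟩)
      · exact h hi
      · exact h hiP
  refine ⟨hal, ?_⟩
  apply graph_ext_rows (u := u) (v := v)
  · intro y
    rw [switchGraph_adj, mk_adj_u huv, mk_adj_u huv, Finset.mem_insert, Finset.mem_erase]
    constructor
    · rintro (⟨h, hn1, hn2⟩ | ⟨h, hne⟩)
      · rcases h with ⟨h1, h2⟩ | ⟨h1, h2⟩
        · refine Or.inl ⟨h1, Or.inr ⟨fun hyi => hn1 (Or.inl ⟨rfl, hyi⟩), h2⟩⟩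
        · exact Or.inr ⟨h1, h2⟩
      · rcases h with (⟨-, h⟩ | ⟨h, -⟩) | (⟨h, -⟩ | ⟨h, -⟩)
        · subst h; exact Or.inl ⟨hj, Or.inl rfl⟩
        · exact absurd h.symm hj'.1
        · exact absurd h.symm hi'.1
        · exact absurd h huv
    · rintro (⟨h1, (h2 | ⟨h2, h3⟩)⟩ | ⟨h1, h2⟩)
      · subst h2; exact Or.inr ⟨Or.inl (Or.inl ⟨rfl, rfl⟩), hj'.1.symm⟩
      · refine Or.inl ⟨Or.inl ⟨h1, h3⟩, ?_, ?_⟩
        · rintro (⟨-, h⟩ | ⟨h, -⟩)
          · exact h2 h
          · exact hi'.1 h.symm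
        · rintro (⟨h, -⟩ | ⟨h, -⟩)
          · exact hj'.1 h.symm
          · exact huv h
      · refine Or.inl ⟨Or.inr ⟨h1, h2⟩, ?_, ?_⟩
        · rintro (⟨-, h⟩ | ⟨h, -⟩)
          · exact h1 (h ▸ hiP)
          · exact hi'.1 h.symm
        · rintro (⟨h, -⟩ | ⟨h, -⟩)
          · exact hj'.1 h.symm
          · exact huv h
  · intro y
    rw [switchGraph_adj, mk_adj_v huv, mk_adj_v huv, Finset.mem_insert, Finset.mem_erase]
    constructor
    · rintro (⟨h, hn1, hn2⟩ | ⟨h, hne⟩)
      · rcases h with ⟨h1, h2⟩ | ⟨h1, h2⟩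
        · refine Or.inl ⟨h1, ?_⟩
          rintro (hyj | ⟨-, hyU⟩)
          · exact hn2 (Or.inr ⟨rfl, hyj⟩)
          · exact h2 hyU
        · exact Or.inr ⟨h1, h2⟩
      · rcases h with (⟨h, -⟩ | ⟨h, -⟩) | (⟨h, -⟩ | ⟨-, h⟩)
        · exact absurd h.symm huv
        · exact absurd h.symm hj'.2.1
        · exact absurd h.symm hi'.2.1
        · subst h
          refine Or.inl ⟨hiP, ?_⟩
          rintro (h | ⟨h, -⟩)
          · exact hij h
          · exact h rfl
    · rintro (⟨h1, h2⟩ | ⟨h1, h2⟩)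
      · by_cases hyi : y = i
        · subst hyi; exact Or.inr ⟨Or.inr (Or.inr ⟨rfl, rfl⟩), hi'.2.1.symm⟩
        · refine Or.inl ⟨Or.inl ⟨h1, fun hyU => h2 (Or.inr ⟨hyi, hyU⟩)⟩, ?_, ?_⟩
          · rintro (⟨h, -⟩ | ⟨h, -⟩)
            · exact huv h.symm
            · exact hi'.2.1 h.symm
          · rintro (⟨h, -⟩ | ⟨-, h⟩)
            · exact hj'.2.1 h.symm
            · exact h2 (Or.inl h)
      · refine Or.inl ⟨Or.inr ⟨h1, h2⟩, ?_, ?_⟩
        · rintro (⟨h, -⟩ | ⟨h, -⟩)
          · exact huv h.symm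
          · exact hi'.2.1 h.symm
        · rintro (⟨h, -⟩ | ⟨-, h⟩)
          · exact hj'.2.1 h.symm
          · exact h1 (h ▸ hj)
  · intro x y hxu hxv hyu hyv
    rw [switchGraph_adj, mk_adj_off G0 _ hxu hxv hyu hyv, mk_adj_off G0 _ hxu hxv hyu hyv]
    constructor
    · rintro (⟨h, -, -⟩ | ⟨h, -⟩)
      · exact h
      · rcases h with (⟨h, -⟩ | ⟨-, h⟩) | (⟨-, h⟩ | ⟨h, -⟩)
        · exact absurd h hxu
        · exact absurd h hyu
        · exact absurd h hyv
        · exact absurd h hxv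
    · intro h
      refine Or.inl ⟨h, ?_, ?_⟩
      · rintro (⟨h', -⟩ | ⟨-, h'⟩)
        · exact hxu h'
        · exact hyu h'
      · rintro (⟨-, h'⟩ | ⟨h', -⟩)
        · exact hyv h'
        · exact hxv h'

/-! ### Graphs in the pair fibre -/

/-- `G` lies in the pair fibre of `G0`: same degrees, same edges away from `u`, `v` -/
def InFibre (u v : Fin n) (G0 G : SimpleGraph (Fin n)) : Prop :=
  (∀ i, G.degree i = G0.degree i) ∧ SameOff u v G0 G

lemma inFibre_refl (u v : Fin n) (G0 : SimpleGraph (Fin n)) : InFibre u v G0 G0 :=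
  ⟨fun _ => rfl, fun _ _ _ _ _ _ => Iff.rfl⟩

/-- degree as a sum of indicators -/
lemma degree_eq_sum (G : SimpleGraph (Fin n)) (x : Fin n) :
    G.degree x = ∑ y, if G.Adj x y then 1 else 0 := by
  rw [← SimpleGraph.card_neighborFinset_eq_degree, SimpleGraph.neighborFinset_eq_filter,
    Finset.card_filter]

lemma sum_split {u v : Fin n} (huv : u ≠ v) (F : Fin n → ℕ) :
    ∑ y, F y = F u + F v + ∑ y ∈ (univ.erase u).erase v, F y := by
  rw [← Finset.add_sum_erase univ F (mem_univ u),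
    ← Finset.add_sum_erase (univ.erase u) F (mem_erase.mpr ⟨huv.symm, mem_univ v⟩)]
  ring

/-- the number of edges from `x ∉ {u, v}` to `{u, v}` is constant on the fibre -/
lemma pair_sum_eq {u v : Fin n} (huv : u ≠ v) {G0 G : SimpleGraph (Fin n)}
    (h : InFibre u v G0 G) {x : Fin n} (hxu : x ≠ u) (hxv : x ≠ v) :
    (if G.Adj u x then 1 else 0) + (if G.Adj v x then 1 else 0)
      = (if G0.Adj u x then 1 else 0) + (if G0.Adj v x then 1 else 0) := by
  have h1 := degree_eq_sum G x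
  have h2 := degree_eq_sum G0 x
  rw [sum_split huv] at h1 h2
  have h3 : ∑ y ∈ (univ.erase u).erase v, (if G.Adj x y then 1 else 0)
      = ∑ y ∈ (univ.erase u).erase v, (if G0.Adj x y then 1 else 0) := by
    apply Finset.sum_congr rfl
    intro y hy
    rw [mem_erase, mem_erase] at hy
    have := h.2 x y hxu hxv hy.2.1 hy.1
    by_cases hxy : G.Adj x y
    · rw [if_pos hxy, if_pos (this.mpr hxy)]
    · rw [if_neg hxy, if_neg (fun h' => hxy (this.mp h'))]
  have h4 := h.1 x
  rw [G.adj_comm u x, G.adj_comm v x, G0.adj_comm u x, G0.adj_comm v x]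
  omega

/-- the slot `uv` is constant on the fibre -/
lemma adj_uv_iff {u v : Fin n} (huv : u ≠ v) {G0 G : SimpleGraph (Fin n)}
    (h : InFibre u v G0 G) : G.Adj u v ↔ G0.Adj u v := by
  have e1 := degree_eq_sum G u
  have e2 := degree_eq_sum G v
  have e3 := degree_eq_sum G0 u
  have e4 := degree_eq_sum G0 v
  rw [sum_split huv] at e1 e2 e3 e4
  have hS : ∑ y ∈ (univ.erase u).erase v,
        ((if G.Adj u y then 1 else 0) + (if G.Adj v y then 1 else 0))
      = ∑ y ∈ (univ.erase u).erase v,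
        ((if G0.Adj u y then 1 else 0) + (if G0.Adj v y then 1 else 0)) := by
    apply Finset.sum_congr rfl
    intro y hy
    rw [mem_erase, mem_erase] at hy
    exact pair_sum_eq huv h hy.2.1 hy.1
  rw [Finset.sum_add_distrib, Finset.sum_add_distrib] at hS
  have d1 := h.1 u
  have d2 := h.1 v
  rw [if_neg (G.irrefl)] at e1 e2
  rw [if_neg (G0.irrefl)] at e3 e4
  rw [G.adj_comm v u] at e2
  rw [G0.adj_comm v u] at e4
  by_cases a : G.Adj u v <;> by_cases b : G0.Adj u v
  · exact ⟨fun _ => b, fun _ => a⟩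
  · rw [if_pos a] at e1 e2; rw [if_neg b] at e3 e4; omega
  · rw [if_neg a] at e1 e2; rw [if_pos b] at e3 e4; omega
  · exact ⟨fun h' => absurd h' a, fun h' => absurd h' b⟩

/-- the set of vertices adjacent to exactly one of `u`, `v` is constant on the fibre -/
lemma priv_eq {u v : Fin n} (huv : u ≠ v) {G0 G : SimpleGraph (Fin n)}
    (h : InFibre u v G0 G) : priv u v G = priv u v G0 := by
  ext x
  rw [mem_priv, mem_priv]
  by_cases hxu : x = u
  · simp [hxu]
  by_cases hxv : x = v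
  · simp [hxv]
  have := pair_sum_eq huv h hxu hxv
  by_cases a : G.Adj u x <;> by_cases b : G.Adj v x <;> by_cases c : G0.Adj u x <;>
    by_cases d : G0.Adj v x <;> simp [a, b, c, d, hxu, hxv] at this ⊢

/-- adjacency to `u` outside the private set is constant on the fibre -/
lemma adj_u_iff_of_notMem {u v : Fin n} (huv : u ≠ v) {G0 G : SimpleGraph (Fin n)}
    (h : InFibre u v G0 G) {y : Fin n} (hy : y ∉ priv u v G0) : G.Adj u y ↔ G0.Adj u y := by
  by_cases hyu : y = u
  · subst hyu; simp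
  by_cases hyv : y = v
  · subst hyv; exact adj_uv_iff huv h
  have := pair_sum_eq huv h hyu hyv
  rw [mem_priv] at hy
  by_cases a : G.Adj u y <;> by_cases b : G.Adj v y <;> by_cases c : G0.Adj u y <;>
    by_cases d : G0.Adj v y <;> simp [a, b, c, d, hyu, hyv] at this hy ⊢

/-- adjacency to `v` outside the private set is constant on the fibre -/
lemma adj_v_iff_of_notMem {u v : Fin n} (huv : u ≠ v) {G0 G : SimpleGraph (Fin n)}
    (h : InFibre u v G0 G) {y : Fin n} (hy : y ∉ priv u v G0) : G.Adj v y ↔ G0.Adj v y := by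
  by_cases hyu : y = u
  · subst hyu
    rw [G.adj_comm, G0.adj_comm]; exact adj_uv_iff huv h
  by_cases hyv : y = v
  · subst hyv; simp
  have := pair_sum_eq huv h hyu hyv
  rw [mem_priv] at hy
  by_cases a : G.Adj u y <;> by_cases b : G.Adj v y <;> by_cases c : G0.Adj u y <;>
    by_cases d : G0.Adj v y <;> simp [a, b, c, d, hyu, hyv] at this hy ⊢

/-- a graph of the fibre is rebuilt from its set of private neighbours of `u` -/
theorem mk_ones {u v : Fin n} (huv : u ≠ v) {G0 G : SimpleGraph (Fin n)}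
    (h : InFibre u v G0 G) : mk u v G0 (ones u v G) = G := by
  apply graph_ext_rows (u := u) (v := v)
  · intro y
    rw [mk_adj_u huv]
    by_cases hy : y ∈ priv u v G0
    · have hy' : y ∈ priv u v G := by rw [priv_eq huv h]; exact hy
      rw [mem_ones_iff_of_mem_priv hy']
      constructor
      · rintro (⟨-, h'⟩ | ⟨h', -⟩)
        · exact h'
        · exact absurd hy h'
      · intro h'; exact Or.inl ⟨hy, h'⟩
    · rw [adj_u_iff_of_notMem huv h hy]
      constructor
      · rintro (⟨h', -⟩ | ⟨-, h'⟩)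
        · exact absurd h' hy
        · exact h'
      · intro h'; exact Or.inr ⟨hy, h'⟩
  · intro y
    rw [mk_adj_v huv]
    by_cases hy : y ∈ priv u v G0
    · have hy' : y ∈ priv u v G := by rw [priv_eq huv h]; exact hy
      rw [not_mem_ones_iff_of_mem_priv hy']
      constructor
      · rintro (⟨-, h'⟩ | ⟨h', -⟩)
        · exact h'
        · exact absurd hy h'
      · intro h'; exact Or.inl ⟨hy, h'⟩
    · rw [adj_v_iff_of_notMem huv h hy]
      constructor
      · rintro (⟨h', -⟩ | ⟨-, h'⟩)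
        · exact absurd h' hy
        · exact h'
      · intro h'; exact Or.inr ⟨hy, h'⟩
  · intro x y hxu hxv hyu hyv
    rw [mk_adj_off G0 _ hxu hxv hyu hyv]
    exact h.2 x y hxu hxv hyu hyv

/-- `G0` is rebuilt from its own private neighbours -/
theorem mk_ones_self {u v : Fin n} (huv : u ≠ v) (G0 : SimpleGraph (Fin n)) :
    mk u v G0 (ones u v G0) = G0 :=
  mk_ones huv (inFibre_refl u v G0)

/-- counting the neighbours of `u` -/
lemma degree_u_split {u v : Fin n} (huv : u ≠ v) (H : SimpleGraph (Fin n)) :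
    (ones u v H).card + ∑ y ∈ (univ.erase u).erase v, (if H.Adj u y ∧ H.Adj v y then 1 else 0)
      + (if H.Adj u v then 1 else 0) = H.degree u := by
  have e1 := degree_eq_sum H u
  rw [sum_split huv, if_neg H.irrefl] at e1
  have e2 : (ones u v H).card
      = ∑ y ∈ (univ.erase u).erase v, (if H.Adj u y ∧ ¬ H.Adj v y then 1 else 0) := by
    unfold ones
    rw [Finset.card_filter, sum_split huv]
    have h1 : ¬ (u ≠ v ∧ H.Adj u u ∧ ¬ H.Adj v u) := fun h => H.irrefl h.2.1
    have h2 : ¬ (v ≠ v ∧ H.Adj u v ∧ ¬ H.Adj v v) := fun h => h.1 rfl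
    rw [if_neg h1, if_neg h2, zero_add, zero_add]
    apply Finset.sum_congr rfl
    intro y hy
    rw [mem_erase, mem_erase] at hy
    by_cases a : H.Adj u y <;> by_cases b : H.Adj v y <;> simp [a, b, hy.1]
  have e3 : ∑ y ∈ (univ.erase u).erase v, (if H.Adj u y then 1 else 0)
      = ∑ y ∈ (univ.erase u).erase v, (if H.Adj u y ∧ ¬ H.Adj v y then 1 else 0)
        + ∑ y ∈ (univ.erase u).erase v, (if H.Adj u y ∧ H.Adj v y then 1 else 0) := by
    rw [← Finset.sum_add_distrib]
    apply Finset.sum_congr rfl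
    intro y _
    by_cases a : H.Adj u y <;> by_cases b : H.Adj v y <;> simp [a, b]
  omega

/-- the number of private neighbours of `u` is constant on the fibre -/
lemma card_ones_eq {u v : Fin n} (huv : u ≠ v) {G0 G : SimpleGraph (Fin n)}
    (h : InFibre u v G0 G) : (ones u v G).card = (ones u v G0).card := by
  have e1 := degree_u_split huv G
  have e2 := degree_u_split huv G0
  have e3 : ∑ y ∈ (univ.erase u).erase v, (if G.Adj u y ∧ G.Adj v y then 1 else 0)
      = ∑ y ∈ (univ.erase u).erase v, (if G0.Adj u y ∧ G0.Adj v y then 1 else 0) := by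
    apply Finset.sum_congr rfl
    intro y hy
    rw [mem_erase, mem_erase] at hy
    have := pair_sum_eq huv h hy.2.1 hy.1
    by_cases a : G.Adj u y <;> by_cases b : G.Adj v y <;> by_cases c : G0.Adj u y <;>
      by_cases d : G0.Adj v y <;> simp [a, b, c, d] at this ⊢
  have e4 : (if G.Adj u v then 1 else 0) = (if G0.Adj u v then 1 else 0) := by
    have := adj_uv_iff huv h
    by_cases a : G.Adj u v
    · rw [if_pos a, if_pos (this.mp a)]
    · rw [if_neg a, if_neg (fun h' => a (this.mpr h'))]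
  have e5 := h.1 u
  omega

/-- the fibre maps into the `k`-subsets of the private set, and `mk` inverts `ones` -/
theorem fibre_maps {u v : Fin n} (huv : u ≠ v) {G0 G : SimpleGraph (Fin n)}
    (h : InFibre u v G0 G) :
    ones u v G ∈ (priv u v G0).powersetCard (ones u v G0).card ∧
      mk u v G0 (ones u v G) = G := by
  refine ⟨?_, mk_ones huv h⟩
  rw [mem_powersetCard]
  refine ⟨?_, card_ones_eq huv h⟩
  rw [← priv_eq huv h]
  exact ones_subset_priv u v G

/-- the rebuilt graph has the degrees of `G0` -/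
theorem mk_degree {u v : Fin n} (huv : u ≠ v) (G0 : SimpleGraph (Fin n)) :
    ∀ (m : ℕ) (U : Finset (Fin n)), U ∈ (priv u v G0).powersetCard (ones u v G0).card →
      (U \ ones u v G0).card = m → ∀ x, (mk u v G0 U).degree x = G0.degree x := by
  intro m
  induction m with
  | zero =>
    intro U hU hm x
    rw [mem_powersetCard] at hU
    have hsub : U ⊆ ones u v G0 := by
      rw [← Finset.sdiff_eq_empty_iff_subset]; exact Finset.card_eq_zero.mp hm
    have hEq : U = ones u v G0 := Finset.eq_of_subset_of_card_le hsub (le_of_eq hU.2.symm)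
    rw [hEq, mk_ones_self huv]
  | succ m ih =>
    intro U hU hm x
    rw [mem_powersetCard] at hU
    obtain ⟨hUP, hUc⟩ := hU
    have hne : (U \ ones u v G0).Nonempty := by
      rw [← Finset.card_pos, hm]; omega
    have hne' : (ones u v G0 \ U).Nonempty := by
      rw [← Finset.card_pos, ← Finset.card_sdiff_comm hUc, hm]; omega
    obtain ⟨j, hj⟩ := hne
    obtain ⟨i, hi⟩ := hne'
    rw [mem_sdiff] at hi hj
    have hiP : i ∈ priv u v G0 := ones_subset_priv u v G0 hi.1
    have hjP : j ∈ priv u v G0 := hUP hj.1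
    have hij : i ≠ j := fun h => hi.2 (h ▸ hj.1)
    set U' := insert i (U.erase j) with hU'
    have hiU' : i ∈ U' := Finset.mem_insert_self _ _
    have hjU' : j ∉ U' := by
      rw [hU', Finset.mem_insert, Finset.mem_erase]
      rintro (h | ⟨h, -⟩)
      · exact hij h.symm
      · exact h rfl
    have hU'P : U' ⊆ priv u v G0 := by
      intro y hy
      rw [hU', Finset.mem_insert, Finset.mem_erase] at hy
      rcases hy with rfl | ⟨-, hy⟩
      · exact hiP
      · exact hUP hy
    have hU'c : U'.card = (ones u v G0).card := by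
      have hi' : i ∉ U.erase j := fun h => hi.2 (Finset.mem_of_mem_erase h)
      rw [hU', Finset.card_insert_of_notMem hi', Finset.card_erase_of_mem hj.1, ← hUc]
      have : 0 < U.card := Finset.card_pos.mpr ⟨j, hj.1⟩
      omega
    have hm' : (U' \ ones u v G0).card = m := by
      have hset : U' \ ones u v G0 = (U \ ones u v G0).erase j := by
        ext y
        rw [hU', mem_sdiff, Finset.mem_insert, Finset.mem_erase, Finset.mem_erase, mem_sdiff]
        constructor
        · rintro ⟨(rfl | ⟨h1, h2⟩), h3⟩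
          · exact absurd hi.1 h3
          · exact ⟨h1, h2, h3⟩
        · rintro ⟨h1, h2, h3⟩
          exact ⟨Or.inr ⟨h1, h2⟩, h3⟩
      rw [hset, Finset.card_erase_of_mem (mem_sdiff.mpr hj), hm]; rfl
    have hback : insert j (U'.erase i) = U := by
      ext y
      rw [Finset.mem_insert, Finset.mem_erase, hU', Finset.mem_insert, Finset.mem_erase]
      constructor
      · rintro (rfl | ⟨h1, (h2 | ⟨-, h2⟩)⟩)
        · exact hj.1
        · exact absurd h2 h1
        · exact h2
      · intro hy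
        by_cases hyj : y = j
        · exact Or.inl hyj
        · refine Or.inr ⟨fun h => hi.2 (h ▸ hy), Or.inr ⟨hyj, hy⟩⟩
    have ih' := ih U' (mem_powersetCard.mpr ⟨hU'P, hU'c⟩) hm' x
    obtain ⟨hal, hsw⟩ := switch_mk huv G0 hiU' hiP hjP hjU'
    rw [hback] at hsw
    rw [← hsw, ← ih']
    have hi' := mem_priv.mp hiP
    have hj' := mem_priv.mp hjP
    exact degree_switch hal hi'.1.symm hj'.1.symm huv hij hi'.2.1 hj'.2.1 x

/-- the `k`-subsets of the private set map into the fibre, and `ones` inverts `mk` -/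
theorem powerset_maps {u v : Fin n} (huv : u ≠ v) (G0 : SimpleGraph (Fin n))
    {U : Finset (Fin n)} (hU : U ∈ (priv u v G0).powersetCard (ones u v G0).card) :
    InFibre u v G0 (mk u v G0 U) ∧ ones u v (mk u v G0 U) = U :=
  ⟨⟨fun x => mk_degree huv G0 _ U hU rfl x, sameOff_mk u v G0 U⟩,
    ones_mk huv G0 (mem_powersetCard.mp hU).1⟩

/-- sums over the pair fibre are sums over the `k`-subsets of the private set -/
theorem sum_fibre {u v : Fin n} (huv : u ≠ v) (G0 : SimpleGraph (Fin n))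
    (F : Finset (SimpleGraph (Fin n))) (hF : ∀ G, G ∈ F ↔ InFibre u v G0 G)
    {M : Type*} [AddCommMonoid M] (H : SimpleGraph (Fin n) → M) :
    ∑ G ∈ F, H G = ∑ U ∈ (priv u v G0).powersetCard (ones u v G0).card, H (mk u v G0 U) := by
  refine Finset.sum_nbij' (ones u v) (mk u v G0) ?_ ?_ ?_ ?_ ?_
  · intro G hG; exact (fibre_maps huv ((hF G).mp hG)).1
  · intro U hU; exact (hF _).mpr (powerset_maps huv G0 hU).1
  · intro G hG; exact (fibre_maps huv ((hF G).mp hG)).2
  · intro U hU; exact (powerset_maps huv G0 hU).2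
  · intro G hG; rw [(fibre_maps huv ((hF G).mp hG)).2]

/-- the pair fibre has as many elements as there are `k`-subsets of the private set -/
theorem card_fibre {u v : Fin n} (huv : u ≠ v) (G0 : SimpleGraph (Fin n))
    (F : Finset (SimpleGraph (Fin n))) (hF : ∀ G, G ∈ F ↔ InFibre u v G0 G) :
    F.card = ((priv u v G0).powersetCard (ones u v G0).card).card := by
  refine Finset.card_nbij' (ones u v) (mk u v G0) ?_ ?_ ?_ ?_
  · intro G hG; exact (fibre_maps huv ((hF G).mp hG)).1
  · intro U hU; exact (hF _).mpr (powerset_maps huv G0 hU).1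
  · intro G hG; exact (fibre_maps huv ((hF G).mp hG)).2
  · intro U hU; exact (powerset_maps huv G0 hU).2

/-- the block switch `u, w, z, v` is allowed in `G` iff `w` is a private neighbour of `u`
and `z` a private neighbour of `v` -/
theorem allowed_iff_ones (G : SimpleGraph (Fin n)) {u v w z : Fin n} (hwv : w ≠ v)
    (hzu : z ≠ u) :
    Allowed G u w z v ↔ w ∈ ones u v G ∧ z ∈ priv u v G ∧ z ∉ ones u v G := by
  unfold Allowed
  rw [mem_ones, mem_priv, mem_ones]
  constructor
  · rintro ⟨h1, h2, h3, h4⟩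
    refine ⟨⟨hwv, h1, fun h => h4 h.symm⟩, ⟨hzu, G.ne_of_adj h2, ⟨fun h => absurd h h3,
      fun h => absurd h2.symm h⟩⟩, fun h => h3 h.2.1⟩
  · rintro ⟨⟨-, h1, h2⟩, ⟨-, hzv, h3⟩, h4⟩
    have hvz : G.Adj v z := by
      by_contra h
      exact h4 ⟨hzv, h3.mpr h, h⟩
    exact ⟨h1, hvz.symm, fun h => h3.mp h hvz, fun h => h2 h.symm⟩

/-- in the rebuilt graph the block switch `u, w, z, v` is allowed iff `w ∈ U` and
`z ∈ priv \ U` -/
theorem allowed_mk_iff {u v : Fin n} (huv : u ≠ v) (G0 : SimpleGraph (Fin n))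
    {U : Finset (Fin n)} (hU : U ⊆ priv u v G0) {w z : Fin n} (hwv : w ≠ v) (hzu : z ≠ u) :
    Allowed (mk u v G0 U) u w z v ↔ w ∈ U ∧ z ∈ priv u v G0 ∧ z ∉ U := by
  rw [allowed_iff_ones _ hwv hzu, ones_mk huv G0 hU, priv_mk huv]

/-- a block switch with diagonal `{u, v}` stays in the pair fibre and exchanges `w` for `z`
in the set of private neighbours of `u` -/
theorem switch_ones {u v : Fin n} (huv : u ≠ v) (G : SimpleGraph (Fin n)) {w z : Fin n}
    (hwv : w ≠ v) (hzu : z ≠ u) (hal : Allowed G u w z v) :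
    InFibre u v G (switchGraph G u w z v) ∧
      ones u v (switchGraph G u w z v) = insert z ((ones u v G).erase w) ∧
      switchGraph G u w z v = mk u v G (insert z ((ones u v G).erase w)) := by
  obtain ⟨hw, hzP, hzU⟩ := (allowed_iff_ones G hwv hzu).mp hal
  have hwP := ones_subset_priv u v G hw
  obtain ⟨-, hsw⟩ := switch_mk huv G hw hwP hzP hzU
  rw [mk_ones_self huv] at hsw
  have hmem : insert z ((ones u v G).erase w) ∈ (priv u v G).powersetCard (ones u v G).card := by
    rw [mem_powersetCard]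
    constructor
    · intro y hy
      rw [Finset.mem_insert, Finset.mem_erase] at hy
      rcases hy with rfl | ⟨-, hy⟩
      · exact hzP
      · exact ones_subset_priv u v G hy
    · have hz' : z ∉ (ones u v G).erase w := fun h => hzU (Finset.mem_of_mem_erase h)
      rw [Finset.card_insert_of_notMem hz', Finset.card_erase_of_mem hw]
      have : 0 < (ones u v G).card := Finset.card_pos.mpr ⟨w, hw⟩
      omega
  obtain ⟨h1, h2⟩ := powerset_maps huv G hmem
  rw [hsw]
  exact ⟨h1, h2, rfl⟩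

end Vale.Agent.Helper1.PairFibre
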